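import Vale.Agent.P234.Main

open scoped Bundle ContDiff

namespace Vale.Agent.Results.P234.Villani

open Vale.Agent.P234

theorem result {E : Type*} [NormedAddCommGroup E] [NormedSpace ℝ E] [FiniteDimensional ℝ E]
    {M : Type*} [MetricSpace M] [ChartedSpace E M]
    [IsManifold (modelWithCornersSelf ℝ E) ∞ M] [CompactSpace M] [ConnectedSpace M]
    [Bundle.RiemannianBundle fun x : M => TangentSpace (modelWithCornersSelf ℝ E) x]
    [IsContMDiffRiemannianBundle (modelWithCornersSelf ℝ E) ∞ E
      fun x : M => TangentSpace (modelWithCornersSelf ℝ E) x]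
    [IsRiemannianManifold (modelWithCornersSelf ℝ E) M] :
    (∀ (x : M) (v : TangentSpace (modelWithCornersSelf ℝ E) x),
      ∃! γ : ℝ → M, IsGeodesicFrom E x v γ) ∧
    (WeakMTW E M → ∀ x : M, Convex ℝ (injDomain E x)) := villani

end Vale.Agent.Results.P234.Villani
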